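import Vale.Agent.P331.H250.Ker
import Vale.Agent.P331.H379.JLabel

/-!
# The luck lemma (one level of the chain), quenched, in one piece

`V ~ TH p univ`, `S = univ \ V`.
-/

set_option autoImplicit false
set_option linter.unusedSectionVars false

namespace Vale.Agent.P331.H511

open Finset Vale.Agent.P331.H489 Vale.Agent.P331.H250 Vale.Agent.P331.H379

section

variable {E : Type*} [Fintype E] [DecidableEq E]

open Classical in
/-- probability that `Z` together with the thinning of `R` with rate `t` is not in `D` -/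
noncomputable def fl (t : ℝ) (D : Finset E → Prop) (R Z : Finset E) : ℝ :=
  TH (fun _ => t) R (fun N => if D (Z ∪ N) then 0 else 1)

theorem fl_nonneg {t : ℝ} (h0 : 0 ≤ t) (h1 : t ≤ 1) (D : Finset E → Prop) (R Z : Finset E) :
    0 ≤ fl t D R Z :=
  TH_nonneg (fun _ => h0) (fun _ => h1) R fun G _ => by split_ifs <;> norm_num

theorem fl_le_one {t : ℝ} (h0 : 0 ≤ t) (h1 : t ≤ 1) (D : Finset E → Prop) (R Z : Finset E) :
    fl t D R Z ≤ 1 := by
  unfold fl
  refine (TH_mono (fun _ => h0) (fun _ => h1) R (g := fun _ => 1) fun G _ => ?_).trans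
    (TH_const _ R 1).le
  split_ifs <;> norm_num

/-- `f` is pivotal at `U` -/
def Pv (D : Finset E → Prop) (f : E) (U : Finset E) : Prop := D (insert f U) ∧ ¬ D (U.erase f)

open Classical in
/-- **transfer** to the sample without the pool -/
theorem transfer {g n tau ew e1 a : ℝ} (hg : 0 ≤ g) (hg2 : 2 * g < 1) (hn : 0 ≤ n)
    (hn1 : n ≤ 1 - 2 * g) (he1 : 0 < e1) (ha : 0 < a) (D : Finset E → Prop)
    (S X : Finset E) (κ : ℕ)
    (h : TH (fun _ => g) S (fun G => if ∃ Y ⊆ X, Y.card ≤ κ ∧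
      fl (n / (1 - g)) D (S \ G) (Y ∪ G) ≤ ew then 0 else 1) ≤ tau) (hew : 0 ≤ ew) :
    TH (fun _ => g) S (fun G2 => if TH (fun _ => g / (1 - g)) (S \ G2) (fun G =>
      if ∃ Y ⊆ X, Y.card ≤ κ ∧ fl (n / (1 - 2 * g)) D ((S \ G2) \ G) (Y ∪ G) ≤ e1
        then (0 : ℝ) else 1) ≤ a then 0 else 1) ≤ (tau + ew / e1) / a := by
  have hg1 : 0 < 1 - g := by linarith
  have hg3 : 0 < 1 - 2 * g := by linarith
  have hr0 : ∀ e : E, 0 ≤ (fun _ : E => g / (1 - g)) e := fun _ => div_nonneg hg hg1.le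
  have hr1 : ∀ e : E, (fun _ : E => g / (1 - g)) e ≤ 1 := fun _ => by
    show g / (1 - g) ≤ 1
    rw [div_le_one hg1]; linarith
  have ht0 : 0 ≤ n / (1 - 2 * g) := div_nonneg hn hg3.le
  have ht1 : n / (1 - 2 * g) ≤ 1 := by rw [div_le_one hg3]; linarith
  have hs0 : ∀ e : E, 0 ≤ (fun _ : E => g) e := fun _ => hg
  have hs1 : ∀ e : E, (fun _ : E => g) e ≤ 1 := fun _ => by show g ≤ 1; linarith
  set B : Finset E → Finset E → ℝ := fun G2 G =>
    if ∃ Y ⊆ X, Y.card ≤ κ ∧ fl (n / (1 - 2 * g)) D ((S \ G2) \ G) (Y ∪ G) ≤ e1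
      then (0 : ℝ) else 1 with hB
  have H1 : TH (fun _ => g) S (fun G2 => TH (fun _ => g / (1 - g)) (S \ G2) (fun G => B G2 G))
      ≤ tau + ew / e1 := by
    rw [TH_TH_swap (fun _ => g) (fun _ => g / (1 - g)) (fun _ => g) (fun _ => g / (1 - g)) S
      (fun e _ => by field_simp) (fun e _ => by field_simp) (fun G2 G => B G2 G)]
    have H2 : TH (fun _ => g) S (fun G => TH (fun _ => g / (1 - g)) (S \ G)
        (fun G2 => B G2 G)) ≤ TH (fun _ => g) S (fun G => (if ∃ Y ⊆ X, Y.card ≤ κ ∧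
      fl (n / (1 - g)) D (S \ G) (Y ∪ G) ≤ ew then 0 else 1) + ew / e1) := by
      refine TH_mono hs0 hs1 S fun G _ => ?_
      split_ifs with hgood
      · obtain ⟨Y0, hY0, hc, hfl⟩ := hgood
        have H3 : TH (fun _ => g / (1 - g)) (S \ G) (fun G2 => B G2 G) ≤
            TH (fun _ => g / (1 - g)) (S \ G) (fun G2 => (1 / e1) *
              TH (fun _ => n / (1 - 2 * g)) ((S \ G) \ G2)
                (fun N => if D (Y0 ∪ G ∪ N) then 0 else 1)) := by
          refine TH_mono hr0 hr1 _ fun G2 _ => ?_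
          have H4 : TH (fun _ => n / (1 - 2 * g)) ((S \ G) \ G2)
                (fun N => if D (Y0 ∪ G ∪ N) then 0 else 1) =
              fl (n / (1 - 2 * g)) D ((S \ G2) \ G) (Y0 ∪ G) := by
            rw [sdiff_right_comm]; rfl
          rw [H4]
          have H5 := fl_nonneg ht0 ht1 D ((S \ G2) \ G) (Y0 ∪ G)
          simp only [hB]
          split_ifs with h6
          · positivity
          · push Not at h6
            have h7 := h6 Y0 hY0 hc
            rw [one_div, inv_mul_eq_div, le_div_iff₀ he1]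
            linarith
        refine H3.trans ?_
        rw [TH_mul, TH_TH_snd (fun _ => g / (1 - g)) (fun _ => n / (1 - 2 * g))
          (fun _ => n / (1 - g)) (S \ G) (fun e _ => by
            show (1 - g / (1 - g)) * (n / (1 - 2 * g)) = n / (1 - g)
            have h10 : 1 - g / (1 - g) = (1 - 2 * g) / (1 - g) := by
              field_simp
              ring
            rw [h10]
            field_simp)]
        have H6 : TH (fun _ => n / (1 - g)) (S \ G) (fun N => if D (Y0 ∪ G ∪ N) then 0 else 1)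
            ≤ ew := hfl
        rw [zero_add, one_div, inv_mul_eq_div]
        gcongr
      · refine (TH_mono hr0 hr1 _ (g := fun _ => 1) fun G2 _ => ?_).trans ?_
        · simp only [hB]
          split_ifs <;> norm_num
        · rw [TH_const]
          have : 0 ≤ ew / e1 := div_nonneg hew he1.le
          linarith
    refine H2.trans ?_
    rw [TH_add, TH_const]
    linarith
  have H7 : TH (fun _ => g) S (fun G2 => if TH (fun _ => g / (1 - g)) (S \ G2)
      (fun G => B G2 G) ≤ a then (0 : ℝ) else 1) ≤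
      TH (fun _ => g) S (fun G2 => (1 / a) *
        TH (fun _ => g / (1 - g)) (S \ G2) (fun G => B G2 G)) := by
    refine TH_mono hs0 hs1 S fun G2 _ => ?_
    have h8 : 0 ≤ TH (fun _ => g / (1 - g)) (S \ G2) (fun G => B G2 G) :=
      TH_nonneg hr0 hr1 _ fun G _ => by simp only [hB]; split_ifs <;> norm_num
    split_ifs with h9
    · positivity
    · push Not at h9
      rw [one_div, inv_mul_eq_div, le_div_iff₀ ha]
      linarith
  refine H7.trans ?_
  rw [TH_mul, one_div, inv_mul_eq_div]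
  gcongr

open Classical in
/-- the event `A_f` -/
def Af (t δ : ℝ) (D : Finset E → Prop) (κ : ℕ) (f : E) (V R H : Finset E) : Prop :=
  ∃ Y ⊆ V, Y.card ≤ κ ∧ δ ≤ TH (fun _ => t) R (fun N => if Pv D f (Y ∪ H ∪ N) then 1 else 0)

open Classical in
theorem gapA {t δ ε1 ε2 : ℝ} (h0 : 0 ≤ t) (h1 : t ≤ 1) {D : Finset E → Prop}
    (hD : ∀ A B : Finset E, A ⊆ B → D A → D B) {R H Y : Finset E} {f : E}
    (hY : fl t D R (Y ∪ H) ≤ ε1) (hY' : ε2 ≤ fl t D R (Y.erase f ∪ H)) (hδ : ε1 + δ ≤ ε2) :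
    δ ≤ TH (fun _ => t) R (fun N => if Pv D f (Y.erase f ∪ H ∪ N) then 1 else 0) := by
  have h2 : fl t D R (Y.erase f ∪ H) - fl t D R (Y ∪ H) ≤
      TH (fun _ => t) R (fun N => if Pv D f (Y.erase f ∪ H ∪ N) then 1 else 0) := by
    unfold fl
    rw [← TH_sub]
    refine TH_mono (fun _ => h0) (fun _ => h1) R fun N _ => ?_
    by_cases hA : D (Y ∪ H ∪ N)
    · by_cases hB : D (Y.erase f ∪ H ∪ N)
      · rw [if_pos hA, if_pos hB]
        split_ifs <;> norm_num
      · have hP : Pv D f (Y.erase f ∪ H ∪ N) := by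
          refine ⟨hD _ _ ?_ hA, fun h => hB (hD _ _ (erase_subset _ _) h)⟩
          intro x hx
          simp only [mem_union, mem_insert, mem_erase] at hx ⊢
          by_cases hxf : x = f
          · exact Or.inl hxf
          · tauto
        rw [if_pos hA, if_neg hB, if_pos hP]
        norm_num
    · have hB : ¬ D (Y.erase f ∪ H ∪ N) := fun h => hA (hD _ _ (by gcongr; exact erase_subset _ _) h)
      rw [if_neg hA, if_neg hB]
      split_ifs <;> norm_num
  linarith

open Classical in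
theorem exists_Af {t δ : ℝ} (h0 : 0 ≤ t) (h1 : t ≤ 1) {D : Finset E → Prop}
    (hD : ∀ A B : Finset E, A ⊆ B → D A → D B) {V X Es : Finset E} (hX : X ⊆ V) {κ : ℕ}
    {ε : ℕ → ℝ} (hε : ∀ y < κ, ε (y + 1) + δ ≤ ε y) {R H : Finset E}
    (hp : ∃ Y ⊆ X, Y.card ≤ κ ∧ fl t D R (Y ∪ H) ≤ ε Y.card)
    (hn : ¬ ∃ Y ⊆ X ∩ Es, Y.card ≤ κ ∧ fl t D R (Y ∪ H) ≤ ε Y.card) :
    ∃ f ∈ V \ Es, Af t δ D κ f V R H := by
  obtain ⟨Y0, hY0, hY0'⟩ := hp
  obtain ⟨Y, hY, hmin⟩ := exists_min_image (X.powerset.filter fun Y => Y.card ≤ κ ∧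
    fl t D R (Y ∪ H) ≤ ε Y.card) card ⟨Y0, by simp [hY0, hY0'.1, hY0'.2]⟩
  simp only [mem_filter, mem_powerset] at hY hmin
  obtain ⟨hYX, hYc, hYf⟩ := hY
  have h2 : ¬ Y ⊆ Es := fun h => hn ⟨Y, subset_inter hYX h, hYc, hYf⟩
  obtain ⟨f, hfY, hfE⟩ := Finset.not_subset.1 h2
  refine ⟨f, mem_sdiff.2 ⟨hX (hYX hfY), hfE⟩, Y.erase f, (erase_subset _ _).trans (hYX.trans hX),
    (card_erase_le).trans hYc, ?_⟩
  have hc1 : (Y.erase f).card + 1 = Y.card := card_erase_add_one hfY
  have h3 : ¬ fl t D R (Y.erase f ∪ H) ≤ ε (Y.erase f).card := by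
    intro h
    have := hmin (Y.erase f) ⟨(erase_subset _ _).trans hYX, by omega, h⟩
    omega
  push Not at h3
  refine gapA h0 h1 hD hYf h3.le ?_
  have := hε (Y.erase f).card (by omega)
  rwa [hc1] at this

/-! ## labels -/

theorem bw2_nonneg' {a b : ℝ} (ha : 0 ≤ a) (hb : 0 ≤ b) (hab : a + b ≤ 1) (S : Finset E) (e : E)
    (l : Option Bool) : 0 ≤ bw2 (fun _ => a) (fun _ => b) S e l := by
  unfold bw2
  split_ifs <;> linarith

theorem bw2_sum' (a b : ℝ) (S : Finset E) (e : E) :
    ∑ l, bw2 (fun _ => a) (fun _ => b) S e l = 1 := by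
  rw [Fintype.sum_option, Fintype.sum_bool]
  unfold bw2
  by_cases h : e ∈ S <;> simp [h]

theorem VH_eq (p g : ℝ) (Φ : Finset E → Finset E → ℝ) :
    TH (fun _ => p) univ (fun V => TH (fun _ => g) (univ \ V) (fun H => Φ V H)) =
      EX (bw2 (fun _ => p) (fun _ => (1 - p) * g) univ)
        (fun ω => Φ (lset (some true) ω) (lset (some false) ω)) := by
  rw [TH_TH]
  rfl

theorem rest_eq (ω : E → Option Bool) :
    (univ \ lset (some true) ω) \ lset (some false) ω = lset none ω := by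
  ext e
  simp only [mem_sdiff, mem_univ, true_and, mem_lset]
  rcases ω e with _ | _ | _ <;> simp

/-! ## the up-set of the sample without the pool -/

open Classical in
/-- for most pools `G ⊆ R` a small subset of `A` covers together with `G` -/
def FF (s t e1 a : ℝ) (D : Finset E → Prop) (κ : ℕ) (R A : Finset E) : Prop :=
  TH (fun _ => s) R (fun G => if ∃ Y ⊆ A, Y.card ≤ κ ∧ fl t D (R \ G) (Y ∪ G) ≤ e1
    then (0 : ℝ) else 1) ≤ a

theorem FF_mono {s t e1 a : ℝ} (h0 : 0 ≤ s) (h1 : s ≤ 1) {D : Finset E → Prop} {κ : ℕ}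
    {R A B : Finset E} (hAB : A ⊆ B) (h : FF s t e1 a D κ R A) : FF s t e1 a D κ R B := by
  refine (TH_mono (fun _ => h0) (fun _ => h1) R fun G _ => ?_).trans h
  by_cases h2 : ∃ Y ⊆ A, Y.card ≤ κ ∧ fl t D (R \ G) (Y ∪ G) ≤ e1
  · obtain ⟨Y, hY, hY2⟩ := h2
    rw [if_pos ⟨Y, hY.trans hAB, hY2⟩]
    split_ifs <;> norm_num
  · rw [if_neg h2]
    split_ifs <;> norm_num

open Classical in
theorem psi_le {g n e1 a : ℝ} (hg : 0 ≤ g) (hg2 : 2 * g < 1) (hn : g ≤ n)
    (hn1 : n ≤ 1 - g) {D : Finset E → Prop} {κ : ℕ} {R H : Finset E}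
    (hF : FF (g / (1 - g)) (n / (1 - 2 * g)) e1 a D κ R H)
    (hψ : 3 * a < fl (n / (1 - g)) D R H) :
    a ≤ TH (fun _ => g / (1 - g)) R (fun G => if (∃ Y ⊆ H, Y.card ≤ κ ∧
      fl (n / (1 - 2 * g)) D (R \ G) (Y ∪ G) ≤ e1) ∧
      a < fl ((n - g) / (1 - 2 * g)) D (R \ G) (H ∪ G) then 1 else 0) := by
  have hg1 : 0 < 1 - g := by linarith
  have hg3 : 0 < 1 - 2 * g := by linarith
  have hs0 : 0 ≤ g / (1 - g) := div_nonneg hg hg1.le
  have hs1 : g / (1 - g) ≤ 1 := by rw [div_le_one hg1]; linarith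
  have ht0 : 0 ≤ (n - g) / (1 - 2 * g) := div_nonneg (by linarith) hg3.le
  have ht1 : (n - g) / (1 - 2 * g) ≤ 1 := by rw [div_le_one hg3]; linarith
  have h1 : fl (n / (1 - g)) D R H = TH (fun _ => g / (1 - g)) R
      (fun G => TH (fun _ => (n - g) / (1 - 2 * g)) (R \ G)
        (fun N => if D (H ∪ (G ∪ N)) then 0 else 1)) := by
    symm
    refine TH_TH_union (fun _ => g / (1 - g)) (fun _ => (n - g) / (1 - 2 * g))
      (fun _ => n / (1 - g)) R (fun e _ => ?_) (fun U => if D (H ∪ U) then 0 else 1)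
    show g / (1 - g) + (1 - g / (1 - g)) * ((n - g) / (1 - 2 * g)) = n / (1 - g)
    have h10 : 1 - g / (1 - g) = (1 - 2 * g) / (1 - g) := by
      field_simp
      ring
    have h11 : (1 - 2 * g) / (1 - g) * ((n - g) / (1 - 2 * g)) = (n - g) / (1 - g) := by
      field_simp
    rw [h10, h11, ← add_div]
    congr 1
    ring
  have h2 : ∀ G : Finset E, TH (fun _ => (n - g) / (1 - 2 * g)) (R \ G)
        (fun N => if D (H ∪ (G ∪ N)) then 0 else 1) =
      fl ((n - g) / (1 - 2 * g)) D (R \ G) (H ∪ G) := by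
    intro G
    unfold fl
    refine TH_congr (fun _ _ => rfl) fun N _ => ?_
    rw [union_assoc]
  simp only [h2] at h1
  have h3 : fl (n / (1 - g)) D R H ≤ TH (fun _ => g / (1 - g)) R (fun G =>
      (if ∃ Y ⊆ H, Y.card ≤ κ ∧ fl (n / (1 - 2 * g)) D (R \ G) (Y ∪ G) ≤ e1
        then (0 : ℝ) else 1) + (a + (if (∃ Y ⊆ H, Y.card ≤ κ ∧
      fl (n / (1 - 2 * g)) D (R \ G) (Y ∪ G) ≤ e1) ∧
      a < fl ((n - g) / (1 - 2 * g)) D (R \ G) (H ∪ G) then 1 else 0))) := by
    rw [h1]
    refine TH_mono (fun _ => hs0) (fun _ => hs1) R fun G _ => ?_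
    have h4 := fl_le_one ht0 ht1 D (R \ G) (H ∪ G)
    have h5 := fl_nonneg ht0 ht1 D (R \ G) (H ∪ G)
    have ha : 0 ≤ a := le_trans (TH_nonneg (fun _ => hs0) (fun _ => hs1) R fun G _ => by
      split_ifs <;> norm_num) hF
    by_cases h6 : ∃ Y ⊆ H, Y.card ≤ κ ∧ fl (n / (1 - 2 * g)) D (R \ G) (Y ∪ G) ≤ e1
    · by_cases h7 : a < fl ((n - g) / (1 - 2 * g)) D (R \ G) (H ∪ G)
      · rw [if_pos h6, if_pos ⟨h6, h7⟩]
        linarith
      · rw [if_pos h6, if_neg (fun h => h7 h.2)]
        push Not at h7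
        linarith
    · rw [if_neg h6, if_neg (fun h => h6 h.1)]
      linarith
  rw [TH_add, TH_add, TH_const] at h3
  unfold FF at hF
  linarith

open Classical in
/-- **the luck lemma**: one level of the chain -/
theorem luck {p g n tau ew e1 a tau' δ lam q PA : ℝ} (hp : 0 ≤ p) (hp1 : p ≤ 1) (hg : 0 ≤ g)
    (hg2 : 2 * g < 1) (hn : g ≤ n) (hn1 : n ≤ 1 - 2 * g) (he1 : 0 < e1) (ha : 0 < a)
    (hew : 0 ≤ ew) (hlam : 1 ≤ lam) (hlam' : lam * p ≤ (1 - p) * g)
    {D : Finset E → Prop} (hD : ∀ A B : Finset E, A ⊆ B → D A → D B)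
    {κ κ' : ℕ} {ε : ℕ → ℝ} (hε : ∀ y < κ', ε (y + 1) + δ ≤ ε y) (hεa : ∀ y ≤ κ', 3 * a ≤ ε y)
    (Bad : Finset E → Prop) (X : Finset E → Finset E) (Es : Finset E)
    (hX : ∀ V, Bad V → X V ⊆ V)
    (h1 : ∀ V, Bad V → TH (fun _ => g) (univ \ V) (fun G => if ∃ Y ⊆ X V, Y.card ≤ κ ∧
      fl (n / (1 - g)) D ((univ \ V) \ G) (Y ∪ G) ≤ ew then 0 else 1) ≤ tau)
    (h2 : ∀ V, Bad V → tau' ≤ TH (fun _ => g) (univ \ V) (fun H => if ∃ Y ⊆ X V ∩ Es,
      Y.card ≤ κ' ∧ fl (n / (1 - g)) D ((univ \ V) \ H) (Y ∪ H) ≤ ε Y.card then 0 else 1))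
    (hq : TH (fun _ => p) univ (fun V => TH (fun _ => g) (univ \ V) (fun H =>
      TH (fun _ => g / (1 - g)) ((univ \ V) \ H) (fun G => if (∃ Y ⊆ H, Y.card ≤ κ ∧
      fl (n / (1 - 2 * g)) D (((univ \ V) \ H) \ G) (Y ∪ G) ≤ e1) ∧
      a < fl ((n - g) / (1 - 2 * g)) D (((univ \ V) \ H) \ G) (H ∪ G) then 1 else 0))) ≤ q)
    (hPA : TH (fun _ => p) univ (fun V => TH (fun _ => g) (univ \ V) (fun H =>
      if ∃ f ∈ V \ Es, Af (n / (1 - g)) δ D κ' f V ((univ \ V) \ H) H then 1 else 0)) ≤ PA) :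
    (tau' - (tau + ew / e1) / a) * TH (fun _ => p) univ (fun V => if Bad V then 1 else 0) ≤
      (lam ^ (κ' + 1))⁻¹ + q / a + PA := by
  have hg1 : 0 < 1 - g := by linarith
  have hg3 : 0 < 1 - 2 * g := by linarith
  have hs0 : 0 ≤ g / (1 - g) := div_nonneg hg hg1.le
  have hs1 : g / (1 - g) ≤ 1 := by rw [div_le_one hg1]; linarith
  have ht0 : 0 ≤ n / (1 - g) := div_nonneg (by linarith) hg1.le
  have ht1 : n / (1 - g) ≤ 1 := by rw [div_le_one hg1]; linarith
  have hp' : ∀ _ : E, 0 ≤ p := fun _ => hp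
  have hp1' : ∀ _ : E, p ≤ 1 := fun _ => hp1
  have hg' : ∀ _ : E, 0 ≤ g := fun _ => hg
  have hg1' : ∀ _ : E, g ≤ 1 := fun _ => by linarith
  -- the event with a transferred set
  obtain ⟨Ev, hEv⟩ : ∃ Ev : Finset E → Finset E → Prop, ∀ V H, Ev V H ↔ (Bad V ∧
    FF (g / (1 - g)) (n / (1 - 2 * g)) e1 a D κ ((univ \ V) \ H) (X V) ∧
    ¬ ∃ Y ⊆ X V, Y.card ≤ κ' ∧ fl (n / (1 - g)) D ((univ \ V) \ H) (Y ∪ H) ≤ ε Y.card) :=
    ⟨_, fun _ _ => Iff.rfl⟩
  set w : E → Option Bool → ℝ := bw2 (fun _ => p) (fun _ => (1 - p) * g) univ with hw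
  have hb0 : 0 ≤ (1 - p) * g := mul_nonneg (by linarith) hg
  have hw0 : ∀ e l, 0 ≤ w e l := fun e l => bw2_nonneg' hp hb0 (by nlinarith) univ e l
  have hw1 : ∀ e, ∑ l, w e l = 1 := fun e => bw2_sum' p ((1 - p) * g) univ e
  -- (I) the transferred event has small probability
  have hI : TH (fun _ => p) univ (fun V => TH (fun _ => g) (univ \ V)
      (fun H => if Ev V H then 1 else 0)) ≤ (lam ^ (κ' + 1))⁻¹ + q / a := by
    rw [VH_eq p g (fun V H => if Ev V H then 1 else 0)]
    obtain ⟨U, hU1, hU2, hU3⟩ := jstar_label' (some true) (some false) (by simp) w hw0 lam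
      hlam (fun e => by simpa [hw, bw2] using hlam')
      (fun ω A => FF (g / (1 - g)) (n / (1 - 2 * g)) e1 a D κ (lset none ω) A)
      (fun ω A B hAB h => FF_mono hs0 hs1 hAB h)
      (fun ω ω' hs A h => by
        have : lset none ω' = lset none ω := by
          ext e
          simp only [mem_lset]
          rcases hs e with h1 | ⟨h1, h2⟩
          · rw [h1]
          · rcases h1 with h1 | h1 <;> rcases h2 with h2 | h2 <;> simp [h1, h2]
        rw [this]
        exact h)
      (fun ω => Ev (lset (some true) ω) (lset (some false) ω))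
      (fun ω => X (lset (some true) ω))
      (fun ω hE => by
        have hE' := (hEv _ _).1 hE
        refine ⟨fun e he => mem_lset.1 (hX _ hE'.1 he), ?_⟩
        have h3 := hE'.2.1
        rw [rest_eq] at h3
        exact h3)
    have hsplit : EX w (fun ω => if Ev (lset (some true) ω) (lset (some false) ω) then 1 else 0)
        ≤ EX w (fun ω => if Ev (lset (some true) ω) (lset (some false) ω) ∧
            κ' + 1 ≤ (U ω).card then 1 else 0) +
          EX w (fun ω => if Ev (lset (some true) ω) (lset (some false) ω) then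
            (if 3 * a < fl (n / (1 - g)) D (lset none (flip (some false) (U ω) ω))
              (lset (some false) (flip (some false) (U ω) ω)) then 1 else 0) else 0) := by
      rw [← EX_add]
      refine EX_mono hw0 fun ω => ?_
      by_cases hE : Ev (lset (some true) ω) (lset (some false) ω)
      · rw [if_pos hE, if_pos hE]
        by_cases hk : κ' + 1 ≤ (U ω).card
        · rw [if_pos ⟨hE, hk⟩]
          split_ifs <;> norm_num
        · rw [if_neg (fun h => hk h.2)]
          have hUX := (hU1 ω hE).1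
          have hE' := (hEv _ _).1 hE
          have hUV : ∀ e ∈ U ω, ω e = some true := fun e he => mem_lset.1 (hX _ hE'.1 (hUX he))
          have h4 : lset none (flip (some false) (U ω) ω) =
              (univ \ lset (some true) ω) \ lset (some false) ω := by
            rw [rest_eq]
            ext e
            simp only [mem_lset, H379.flip]
            by_cases he : e ∈ U ω
            · simp [he, hUV e he]
            · simp [he]
          have h5 : lset (some false) (flip (some false) (U ω) ω) =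
              U ω ∪ lset (some false) ω := by
            ext e
            simp only [mem_lset, H379.flip, mem_union]
            by_cases he : e ∈ U ω
            · simp [he]
            · simp [he]
          have h6 : ε (U ω).card < fl (n / (1 - g)) D
              ((univ \ lset (some true) ω) \ lset (some false) ω)
              (U ω ∪ lset (some false) ω) := by
            by_contra h7
            push Not at h7
            exact hE'.2.2 ⟨U ω, hUX, by omega, h7⟩
          rw [h4, h5, if_pos (lt_of_le_of_lt (hεa _ (by omega)) h6)]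
          norm_num
      · rw [if_neg hE, if_neg hE, if_neg (fun h => hE h.1)]
        norm_num
    refine hsplit.trans (add_le_add ?_ ?_)
    · have := hU3 (κ' + 1) hw1
      rw [inv_eq_one_div, le_div_iff₀' (by positivity)]
      exact this
    · refine (hU2 (fun ω => if 3 * a < fl (n / (1 - g)) D (lset none ω) (lset (some false) ω)
        then 1 else 0) (fun ω => by split_ifs <;> norm_num)).trans ?_
      have h7 : ∀ ω : E → Option Bool, (if FF (g / (1 - g)) (n / (1 - 2 * g)) e1 a D κ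
            (lset none ω) (lab (some false) ω) then
          (if 3 * a < fl (n / (1 - g)) D (lset none ω) (lset (some false) ω)
            then (1 : ℝ) else 0) else 0) ≤ (1 / a) *
          (fun V H => TH (fun _ => g / (1 - g)) ((univ \ V) \ H) (fun G => if (∃ Y ⊆ H,
            Y.card ≤ κ ∧ fl (n / (1 - 2 * g)) D (((univ \ V) \ H) \ G) (Y ∪ G) ≤ e1) ∧
            a < fl ((n - g) / (1 - 2 * g)) D (((univ \ V) \ H) \ G) (H ∪ G)
              then (1 : ℝ) else 0)) (lset (some true) ω) (lset (some false) ω) := by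
        intro ω
        simp only [rest_eq]
        have h9 : 0 ≤ TH (fun _ => g / (1 - g)) (lset none ω) (fun G =>
            if (∃ Y ⊆ lset (some false) ω, Y.card ≤ κ ∧
              fl (n / (1 - 2 * g)) D (lset none ω \ G) (Y ∪ G) ≤ e1) ∧
            a < fl ((n - g) / (1 - 2 * g)) D (lset none ω \ G) (lset (some false) ω ∪ G)
              then (1 : ℝ) else 0) := TH_nonneg (fun _ => hs0) (fun _ => hs1) _ fun G _ => by
          split_ifs <;> norm_num
        rw [one_div, inv_mul_eq_div, le_div_iff₀ ha]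
        split_ifs with h10 h11
        · rw [one_mul]
          exact psi_le hg hg2 hn (by linarith) h10 h11
        · linarith
        · linarith
      refine (EX_mono hw0 h7).trans ?_
      rw [EX_mul, one_div, inv_mul_eq_div]
      refine div_le_div_of_nonneg_right ?_ ha.le
      exact le_of_eq_of_le (VH_eq p g (fun V H => TH (fun _ => g / (1 - g)) ((univ \ V) \ H)
        (fun G => if (∃ Y ⊆ H, Y.card ≤ κ ∧
          fl (n / (1 - 2 * g)) D (((univ \ V) \ H) \ G) (Y ∪ G) ≤ e1) ∧
          a < fl ((n - g) / (1 - 2 * g)) D (((univ \ V) \ H) \ G) (H ∪ G)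
            then (1 : ℝ) else 0))).symm hq
  -- (II) decomposition
  have hII : tau' * TH (fun _ => p) univ (fun V => if Bad V then 1 else 0) ≤
      TH (fun _ => p) univ (fun V => (TH (fun _ => g) (univ \ V)
        (fun H => if Ev V H then 1 else 0) + (tau + ew / e1) / a * (if Bad V then 1 else 0)) +
        TH (fun _ => g) (univ \ V) (fun H =>
          if ∃ f ∈ V \ Es, Af (n / (1 - g)) δ D κ' f V ((univ \ V) \ H) H then 1 else 0)) := by
    rw [← TH_mul]
    refine TH_mono hp' hp1' _ fun V _ => ?_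
    have h0 : 0 ≤ TH (fun _ => g) (univ \ V) (fun H => if Ev V H then (1 : ℝ) else 0) :=
      TH_nonneg hg' hg1' _ fun H _ => by split_ifs <;> norm_num
    have h0' : 0 ≤ TH (fun _ => g) (univ \ V) (fun H =>
          if ∃ f ∈ V \ Es, Af (n / (1 - g)) δ D κ' f V ((univ \ V) \ H) H
            then (1 : ℝ) else 0) :=
      TH_nonneg hg' hg1' _ fun H _ => by split_ifs <;> norm_num
    by_cases hB : Bad V
    · rw [if_pos hB, mul_one, mul_one]
      have htr := transfer hg hg2 (by linarith) hn1 he1 ha D (univ \ V) (X V) κ (h1 V hB) hew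
      have h3 := h2 V hB
      have h4 : TH (fun _ => g) (univ \ V) (fun H => if ∃ Y ⊆ X V ∩ Es,
          Y.card ≤ κ' ∧ fl (n / (1 - g)) D ((univ \ V) \ H) (Y ∪ H) ≤ ε Y.card
            then (0 : ℝ) else 1) ≤
          TH (fun _ => g) (univ \ V) (fun H => ((if Ev V H then (1 : ℝ) else 0) +
            (if TH (fun _ => g / (1 - g)) ((univ \ V) \ H) (fun G =>
              if ∃ Y ⊆ X V, Y.card ≤ κ ∧
                fl (n / (1 - 2 * g)) D (((univ \ V) \ H) \ G) (Y ∪ G) ≤ e1
                then (0 : ℝ) else 1) ≤ a then (0 : ℝ) else 1)) +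
            (if ∃ f ∈ V \ Es, Af (n / (1 - g)) δ D κ' f V ((univ \ V) \ H) H
              then (1 : ℝ) else 0)) := by
        refine TH_mono hg' hg1' _ fun H _ => ?_
        by_cases hA : ∃ Y ⊆ X V ∩ Es,
          Y.card ≤ κ' ∧ fl (n / (1 - g)) D ((univ \ V) \ H) (Y ∪ H) ≤ ε Y.card
        · rw [if_pos hA]
          split_ifs <;> norm_num
        · rw [if_neg hA]
          by_cases hG : ∃ Y ⊆ X V,
            Y.card ≤ κ' ∧ fl (n / (1 - g)) D ((univ \ V) \ H) (Y ∪ H) ≤ ε Y.card
          · have := exists_Af ht0 ht1 hD (hX V hB) hε hG hA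
            rw [if_pos this]
            split_ifs <;> norm_num
          · by_cases hF : TH (fun _ => g / (1 - g)) ((univ \ V) \ H) (fun G =>
              if ∃ Y ⊆ X V, Y.card ≤ κ ∧
                fl (n / (1 - 2 * g)) D (((univ \ V) \ H) \ G) (Y ∪ G) ≤ e1
                then (0 : ℝ) else 1) ≤ a
            · have hEE : Ev V H := (hEv V H).2 ⟨hB, hF, hG⟩
              rw [if_pos hEE]
              split_ifs <;> norm_num
            · rw [if_neg hF]
              split_ifs <;> norm_num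
      rw [TH_add, TH_add] at h4
      linarith
    · rw [if_neg hB, mul_zero, mul_zero]
      linarith
  have hIII : TH (fun _ => p) univ (fun V => (TH (fun _ => g) (univ \ V)
        (fun H => if Ev V H then (1 : ℝ) else 0) +
          (tau + ew / e1) / a * (if Bad V then 1 else 0)) +
        TH (fun _ => g) (univ \ V) (fun H =>
          if ∃ f ∈ V \ Es, Af (n / (1 - g)) δ D κ' f V ((univ \ V) \ H) H
            then (1 : ℝ) else 0)) =
      (TH (fun _ => p) univ (fun V => TH (fun _ => g) (univ \ V)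
        (fun H => if Ev V H then (1 : ℝ) else 0)) +
        (tau + ew / e1) / a * TH (fun _ => p) univ (fun V => if Bad V then 1 else 0)) +
        TH (fun _ => p) univ (fun V => TH (fun _ => g) (univ \ V) (fun H =>
          if ∃ f ∈ V \ Es, Af (n / (1 - g)) δ D κ' f V ((univ \ V) \ H) H
            then (1 : ℝ) else 0)) := by
    rw [TH_add, TH_add, TH_mul]
  rw [hIII] at hII
  rw [sub_mul]
  linarith

end

end Vale.Agent.P331.H511
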